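import Mathlib

/-!
# P207, block JG: growth of the derivatives of `f ∘ φ_r` transversally to the flow
-/

open scoped Topology Matrix
open Set Filter

noncomputable section

namespace Vale.Agent.P207.Q.Growth

variable {κ : Type} [Fintype κ]

theorem dot_nonneg (x : κ → ℝ) : 0 ≤ x ⬝ᵥ x := by
  rw [dotProduct]
  exact Finset.sum_nonneg fun i _ => mul_self_nonneg _

theorem two_dot_le (x y : κ → ℝ) {a : ℝ} (ha : 0 < a) :
    2 * (x ⬝ᵥ y) ≤ a * (x ⬝ᵥ x) + a⁻¹ * (y ⬝ᵥ y) := by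
  rw [dotProduct, dotProduct, dotProduct, Finset.mul_sum, Finset.mul_sum, Finset.mul_sum,
    ← Finset.sum_add_distrib]
  refine Finset.sum_le_sum fun i _ => ?_
  have h1 : 0 ≤ a * (x i - a⁻¹ * y i) ^ 2 := mul_nonneg ha.le (sq_nonneg _)
  have h2 : a * (x i - a⁻¹ * y i) ^ 2 = a * (x i * x i) + a⁻¹ * (y i * y i) - 2 * (x i * y i) := by
    field_simp
    ring
  linarith

/-- a symmetric form with `0 ≤ K ≤ Λ²` -/
theorem two_form_le {K : Matrix κ κ ℝ} {L : ℝ} (hL : 0 < L) (hs : Kᵀ = K)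
    (h0 : ∀ x, 0 ≤ x ⬝ᵥ (K *ᵥ x)) (h1 : ∀ x, x ⬝ᵥ (K *ᵥ x) ≤ L ^ 2 * (x ⬝ᵥ x)) (x y : κ → ℝ) :
    2 * (x ⬝ᵥ (K *ᵥ y)) ≤ L * (x ⬝ᵥ x) + L ^ 3 * (y ⬝ᵥ y) := by
  have h2 := h0 (x - L • y)
  have hsym : y ⬝ᵥ (K *ᵥ x) = x ⬝ᵥ (K *ᵥ y) := by
    rw [Matrix.dotProduct_mulVec, ← Matrix.mulVec_transpose, hs, dotProduct_comm]
  rw [Matrix.mulVec_sub, Matrix.mulVec_smul, sub_dotProduct, dotProduct_sub, dotProduct_sub,
    smul_dotProduct, smul_dotProduct, dotProduct_smul, dotProduct_smul, hsym] at h2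
  simp only [smul_eq_mul] at h2
  have h3 := h1 x
  have h4 := h1 y
  have h5 : 2 * L * (x ⬝ᵥ (K *ᵥ y)) ≤ L ^ 2 * (x ⬝ᵥ x) + L ^ 2 * (L ^ 2 * (y ⬝ᵥ y)) := by
    have h6 := mul_le_mul_of_nonneg_left h4 (sq_nonneg L)
    have h7 : L * (L * (y ⬝ᵥ (K *ᵥ y))) = L ^ 2 * (y ⬝ᵥ (K *ᵥ y)) := by ring
    linarith
  have h8 : L * (2 * (x ⬝ᵥ (K *ᵥ y))) ≤ L * (L * (x ⬝ᵥ x) + L ^ 3 * (y ⬝ᵥ y)) := by
    calc _ = 2 * L * (x ⬝ᵥ (K *ᵥ y)) := by ring
      _ ≤ _ := h5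
      _ = _ := by ring
  exact le_of_mul_le_mul_left h8 hL

/-- Gronwall for `v' = h`, `h' = K v + c`, forward in time -/
theorem growth_fwd {v h c : ℝ → κ → ℝ} {K : ℝ → Matrix κ κ ℝ} {L C : ℝ} (hL : 0 < L) (hC : 0 ≤ C)
    (hv : ∀ i r, HasDerivAt (fun s => v s i) (h r i) r)
    (hh : ∀ i r, HasDerivAt (fun s => h s i) ((K r *ᵥ v r) i + c r i) r)
    (hs : ∀ r, (K r)ᵀ = K r) (h0 : ∀ r x, 0 ≤ x ⬝ᵥ (K r *ᵥ x))
    (h1 : ∀ r x, x ⬝ᵥ (K r *ᵥ x) ≤ L ^ 2 * (x ⬝ᵥ x))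
    (hc : ∀ r, c r ⬝ᵥ c r ≤ C ^ 2) {r : ℝ} (hr : 0 ≤ r) :
    L ^ 2 * (v r ⬝ᵥ v r) + h r ⬝ᵥ h r ≤
      (1 + (L ^ 2 * (v 0 ⬝ᵥ v 0) + h 0 ⬝ᵥ h 0)) * Real.exp (C / L) * Real.exp (2 * L * r) := by
  set E : ℝ → ℝ := fun r => L ^ 2 * (v r ⬝ᵥ v r) + h r ⬝ᵥ h r with hE
  have dvv : ∀ r, HasDerivAt (fun s => v s ⬝ᵥ v s) (2 * (v r ⬝ᵥ h r)) r := by
    intro r
    have := HasDerivAt.fun_sum (u := Finset.univ) (A := fun i s => v s i * v s i)
      (A' := fun i => h r i * v r i + v r i * h r i) (x := r)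
      (fun i _ => (hv i r).fun_mul (hv i r))
    refine this.congr_deriv ?_
    rw [dotProduct, Finset.mul_sum]
    refine Finset.sum_congr rfl fun i _ => by ring
  have dhh : ∀ r, HasDerivAt (fun s => h s ⬝ᵥ h s)
      (2 * (h r ⬝ᵥ (K r *ᵥ v r)) + 2 * (h r ⬝ᵥ c r)) r := by
    intro r
    have := HasDerivAt.fun_sum (u := Finset.univ) (A := fun i s => h s i * h s i)
      (A' := fun i => ((K r *ᵥ v r) i + c r i) * h r i + h r i * ((K r *ᵥ v r) i + c r i)) (x := r)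
      (fun i _ => (hh i r).fun_mul (hh i r))
    refine this.congr_deriv ?_
    rw [dotProduct, dotProduct, Finset.mul_sum, Finset.mul_sum, ← Finset.sum_add_distrib]
    refine Finset.sum_congr rfl fun i _ => by ring
  have dE : ∀ r, HasDerivAt E (L ^ 2 * (2 * (v r ⬝ᵥ h r)) +
      (2 * (h r ⬝ᵥ (K r *ᵥ v r)) + 2 * (h r ⬝ᵥ c r))) r := fun r =>
    ((dvv r).const_mul (L ^ 2)).fun_add (dhh r)
  have hE0 : ∀ r, 0 ≤ E r := fun r =>
    add_nonneg (mul_nonneg (sq_nonneg _) (dot_nonneg _)) (dot_nonneg _)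
  -- the main inequality
  have hmain : ∀ r a, 0 < a → L ^ 2 * (2 * (v r ⬝ᵥ h r)) +
      (2 * (h r ⬝ᵥ (K r *ᵥ v r)) + 2 * (h r ⬝ᵥ c r)) ≤ 2 * L * E r + (a * E r + a⁻¹ * C ^ 2) := by
    intro r a ha
    have k1 := two_dot_le (v r) (h r) hL
    have k2 := two_form_le hL (hs r) (h0 r) (h1 r) (h r) (v r)
    have k3 := two_dot_le (h r) (c r) ha
    have k4 : L ^ 2 * (2 * (v r ⬝ᵥ h r)) ≤ L * E r := by
      have k5 := mul_le_mul_of_nonneg_left k1 (sq_nonneg L)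
      have k6 : L ^ 2 * (L * (v r ⬝ᵥ v r) + L⁻¹ * (h r ⬝ᵥ h r)) = L * E r := by
        simp only [hE]
        field_simp
      linarith
    have k5 : L * (h r ⬝ᵥ h r) + L ^ 3 * (v r ⬝ᵥ v r) = L * E r := by
      simp only [hE]; ring
    have k6 : a⁻¹ * (c r ⬝ᵥ c r) ≤ a⁻¹ * C ^ 2 :=
      mul_le_mul_of_nonneg_left (hc r) (inv_pos.2 ha).le
    have k7 : a * (h r ⬝ᵥ h r) ≤ a * E r := by
      refine mul_le_mul_of_nonneg_left ?_ ha.le
      simp only [hE]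
      have := mul_nonneg (sq_nonneg L) (dot_nonneg (v r))
      linarith
    linarith
  -- the quantity `(1 + e^{-2Lr} E) exp (C e^{-Lr} / L)` is antitone
  have dZ : ∀ r, HasDerivAt (fun s => (1 + E s * Real.exp (-(2 * L) * s)) *
      Real.exp (C / L * Real.exp (-L * s)))
      (((L ^ 2 * (2 * (v r ⬝ᵥ h r)) + (2 * (h r ⬝ᵥ (K r *ᵥ v r)) + 2 * (h r ⬝ᵥ c r))
        - 2 * L * E r) * Real.exp (-(2 * L) * r) -
        C * Real.exp (-L * r) * (1 + E r * Real.exp (-(2 * L) * r))) *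
        Real.exp (C / L * Real.exp (-L * r))) r := by
    intro r
    have e1 : HasDerivAt (fun s => -(2 * L) * s) (-(2 * L)) r := by
      simpa using (hasDerivAt_id r).const_mul (-(2 * L))
    have e2 : HasDerivAt (fun s => -L * s) (-L) r := by
      simpa using (hasDerivAt_id r).const_mul (-L)
    have e3 := (((dE r).fun_mul e1.exp).const_add 1).fun_mul ((e2.exp.const_mul (C / L)).exp)
    refine e3.congr_deriv ?_
    field_simp
    ring
  have hanti : Antitone (fun s => (1 + E s * Real.exp (-(2 * L) * s)) *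
      Real.exp (C / L * Real.exp (-L * s))) := by
    refine antitone_of_deriv_nonpos (fun s => (dZ s).differentiableAt) fun s => ?_
    rw [(dZ s).deriv]
    refine mul_nonpos_of_nonpos_of_nonneg ?_ (Real.exp_pos _).le
    rcases hC.eq_or_lt with hC0 | hC0
    · have hle : ∀ a > 0, L ^ 2 * (2 * (v s ⬝ᵥ h s)) +
          (2 * (h s ⬝ᵥ (K s *ᵥ v s)) + 2 * (h s ⬝ᵥ c s)) - 2 * L * E s ≤ a * E s := by
        intro a ha
        have := hmain s a ha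
        rw [← hC0] at this
        linarith
      have hle0 : L ^ 2 * (2 * (v s ⬝ᵥ h s)) +
          (2 * (h s ⬝ᵥ (K s *ᵥ v s)) + 2 * (h s ⬝ᵥ c s)) - 2 * L * E s ≤ 0 := by
        by_contra hcon
        push Not at hcon
        rcases (hE0 s).eq_or_lt with hE1 | hE1
        · have := hle 1 one_pos
          rw [← hE1] at this hcon
          linarith
        · have h9 := hle _ (div_pos hcon (mul_pos two_pos hE1))
          have h10 : ∀ X : ℝ, X / (2 * E s) * E s = X / 2 := by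
            intro X
            field_simp
          rw [h10] at h9
          linarith
      rw [← hC0]
      have := mul_nonpos_of_nonpos_of_nonneg hle0 (Real.exp_pos (-(2 * L) * s)).le
      linarith
    · set x := Real.exp (-L * s) with hx
      have hx0 : 0 < x := Real.exp_pos _
      have hxx : Real.exp (-(2 * L) * s) = x * x := by
        rw [hx, ← Real.exp_add]; ring_nf
      rw [hxx]
      have k := hmain s (C * x) (mul_pos hC0 hx0)
      have k1 : (L ^ 2 * (2 * (v s ⬝ᵥ h s)) +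
          (2 * (h s ⬝ᵥ (K s *ᵥ v s)) + 2 * (h s ⬝ᵥ c s)) - 2 * L * E s) ≤
          C * x * E s + (C * x)⁻¹ * C ^ 2 := by linarith
      have k2 := mul_le_mul_of_nonneg_right k1 (mul_pos hx0 hx0).le
      have k3 : (C * x * E s + (C * x)⁻¹ * C ^ 2) * (x * x) = C * x * (1 + E s * (x * x)) := by
        field_simp
        ring
      linarith
  have key := hanti hr
  simp only [mul_zero, Real.exp_zero, mul_one] at key
  have p1 : 1 ≤ Real.exp (C / L * Real.exp (-L * r)) :=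
    Real.one_le_exp (mul_nonneg (div_nonneg hC hL.le) (Real.exp_pos _).le)
  have p2 : 0 ≤ 1 + E r * Real.exp (-(2 * L) * r) :=
    add_nonneg zero_le_one (mul_nonneg (hE0 r) (Real.exp_pos _).le)
  have p3 : E r * Real.exp (-(2 * L) * r) ≤ (1 + E 0) * Real.exp (C / L) := by
    have p4 := mul_le_mul_of_nonneg_left p1 p2
    linarith
  have p5 := mul_le_mul_of_nonneg_right p3 (Real.exp_pos (2 * L * r)).le
  have p6 : E r * Real.exp (-(2 * L) * r) * Real.exp (2 * L * r) = E r := by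
    rw [mul_assoc, ← Real.exp_add]; simp
  rw [p6] at p5
  exact p5

/-- Gronwall for `v' = h`, `h' = K v + c`, all times -/
theorem growth {v h c : ℝ → κ → ℝ} {K : ℝ → Matrix κ κ ℝ} {L C : ℝ} (hL : 0 < L) (hC : 0 ≤ C)
    (hv : ∀ i r, HasDerivAt (fun s => v s i) (h r i) r)
    (hh : ∀ i r, HasDerivAt (fun s => h s i) ((K r *ᵥ v r) i + c r i) r)
    (hs : ∀ r, (K r)ᵀ = K r) (h0 : ∀ r x, 0 ≤ x ⬝ᵥ (K r *ᵥ x))
    (h1 : ∀ r x, x ⬝ᵥ (K r *ᵥ x) ≤ L ^ 2 * (x ⬝ᵥ x))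
    (hc : ∀ r, c r ⬝ᵥ c r ≤ C ^ 2) (r : ℝ) :
    L ^ 2 * (v r ⬝ᵥ v r) + h r ⬝ᵥ h r ≤
      (1 + (L ^ 2 * (v 0 ⬝ᵥ v 0) + h 0 ⬝ᵥ h 0)) * Real.exp (C / L) * Real.exp (2 * L * |r|) := by
  rcases le_total 0 r with hr | hr
  · rw [abs_of_nonneg hr]
    exact growth_fwd hL hC hv hh hs h0 h1 hc hr
  · have key := growth_fwd (v := fun s => v (-s)) (h := fun s i => - h (-s) i)
      (c := fun s => c (-s)) (K := fun s => K (-s)) (L := L) (C := C) hL hC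
      (fun i s => by
        have h2 : HasDerivAt (fun s => v (-s) i) (h (-s) i * -1) s :=
          (hv i (-s)).comp s (hasDerivAt_neg' s)
        refine h2.congr_deriv ?_
        ring)
      (fun i s => by
        have h2 : HasDerivAt (fun s => h (-s) i) (((K (-s) *ᵥ v (-s)) i + c (-s) i) * -1) s :=
          (hh i (-s)).comp s (hasDerivAt_neg' s)
        refine h2.fun_neg.congr_deriv ?_
        ring)
      (fun s => hs (-s)) (fun s => h0 (-s)) (fun s => h1 (-s)) (fun s => hc (-s))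
      (r := -r) (by linarith)
    have e1 : ∀ s, (fun i => - h s i) ⬝ᵥ (fun i => - h s i) = h s ⬝ᵥ h s := by
      intro s
      simp [dotProduct]
    simp only [neg_neg, neg_zero, e1] at key
    rw [abs_of_nonpos hr]
    exact key

variable {P : Type}

/-- **block JG**: growth of the transversal derivatives of `f ∘ φ_r`. `a i r p = V_i (f ∘ φ_r) p`,
`b i r p = H_i (f ∘ φ_r) p`; the hypotheses are the derivatives of `r ↦ V_i (f ∘ φ_r) (φ_{-r} q)`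
and of `r ↦ H_i (f ∘ φ_r) (φ_{-r} q)`. -/
theorem deriv_growth {φ : ℝ → P → P} (hφ0 : ∀ p, φ 0 p = p)
    (hφ : ∀ s t p, φ (s + t) p = φ s (φ t p)) {K : P → Matrix κ κ ℝ} {ρ : κ → P → ℝ}
    {a b : κ → ℝ → P → ℝ} {Rf : P → ℝ} {L C E₀ : ℝ} (hL : 0 < L) (hC : 0 ≤ C)
    (ha : ∀ i q r, HasDerivAt (fun s => a i s (φ (-s) q)) (b i r (φ (-r) q)) r)
    (hb : ∀ i q r, HasDerivAt (fun s => b i s (φ (-s) q))
      (∑ j, K (φ (-r) q) i j * a j r (φ (-r) q) + ρ i (φ (-r) q) * Rf q) r)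
    (hs : ∀ p, (K p)ᵀ = K p) (h0 : ∀ p x, 0 ≤ x ⬝ᵥ (K p *ᵥ x))
    (h1 : ∀ p x, x ⬝ᵥ (K p *ᵥ x) ≤ L ^ 2 * (x ⬝ᵥ x))
    (hc : ∀ p q, ∑ i, (ρ i p * Rf q) * (ρ i p * Rf q) ≤ C ^ 2)
    (hE : ∀ q, L ^ 2 * ∑ i, a i 0 q * a i 0 q + ∑ i, b i 0 q * b i 0 q ≤ E₀) (r : ℝ) (p : P) :
    L ^ 2 * ∑ i, a i r p * a i r p + ∑ i, b i r p * b i r p ≤
      (1 + E₀) * Real.exp (C / L) * Real.exp (2 * L * |r|) := by
  set q := φ r p with hq
  have hqp : φ (-r) q = p := by rw [hq, ← hφ, neg_add_cancel, hφ0]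
  have key := growth (v := fun s i => a i s (φ (-s) q)) (h := fun s i => b i s (φ (-s) q))
    (c := fun s i => ρ i (φ (-s) q) * Rf q) (K := fun s => K (φ (-s) q)) hL hC
    (fun i s => ha i q s) (fun i s => hb i q s) (fun s => hs _) (fun s => h0 _) (fun s => h1 _)
    (fun s => hc _ q) r
  simp only [hqp, neg_zero, hφ0] at key
  refine key.trans ?_
  have h2 := hE q
  refine mul_le_mul_of_nonneg_right (mul_le_mul_of_nonneg_right ?_ (Real.exp_pos _).le)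
    (Real.exp_pos _).le
  simp only [dotProduct]
  linarith

/-- pointwise form -/
theorem abs_deriv_le {φ : ℝ → P → P} (hφ0 : ∀ p, φ 0 p = p)
    (hφ : ∀ s t p, φ (s + t) p = φ s (φ t p)) {K : P → Matrix κ κ ℝ} {ρ : κ → P → ℝ}
    {a b : κ → ℝ → P → ℝ} {Rf : P → ℝ} {L C E₀ : ℝ} (hL : 0 < L) (hC : 0 ≤ C)
    (ha : ∀ i q r, HasDerivAt (fun s => a i s (φ (-s) q)) (b i r (φ (-r) q)) r)
    (hb : ∀ i q r, HasDerivAt (fun s => b i s (φ (-s) q))
      (∑ j, K (φ (-r) q) i j * a j r (φ (-r) q) + ρ i (φ (-r) q) * Rf q) r)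
    (hs : ∀ p, (K p)ᵀ = K p) (h0 : ∀ p x, 0 ≤ x ⬝ᵥ (K p *ᵥ x))
    (h1 : ∀ p x, x ⬝ᵥ (K p *ᵥ x) ≤ L ^ 2 * (x ⬝ᵥ x))
    (hc : ∀ p q, ∑ i, (ρ i p * Rf q) * (ρ i p * Rf q) ≤ C ^ 2)
    (hE : ∀ q, L ^ 2 * ∑ i, a i 0 q * a i 0 q + ∑ i, b i 0 q * b i 0 q ≤ E₀)
    (i : κ) (r : ℝ) (p : P) :
    |a i r p| ≤ L⁻¹ * Real.sqrt ((1 + E₀) * Real.exp (C / L)) * Real.exp (L * |r|) ∧
    |b i r p| ≤ Real.sqrt ((1 + E₀) * Real.exp (C / L)) * Real.exp (L * |r|) := by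
  have key := deriv_growth hφ0 hφ hL hC ha hb hs h0 h1 hc hE r p
  have n1 : a i r p * a i r p ≤ ∑ i, a i r p * a i r p :=
    Finset.single_le_sum (f := fun i => a i r p * a i r p) (fun j _ => mul_self_nonneg _)
      (Finset.mem_univ i)
  have n2 : b i r p * b i r p ≤ ∑ i, b i r p * b i r p :=
    Finset.single_le_sum (f := fun i => b i r p * b i r p) (fun j _ => mul_self_nonneg _)
      (Finset.mem_univ i)
  have n3 : 0 ≤ ∑ i, a i r p * a i r p := Finset.sum_nonneg fun j _ => mul_self_nonneg _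
  have n4 : 0 ≤ ∑ i, b i r p * b i r p := Finset.sum_nonneg fun j _ => mul_self_nonneg _
  have hexp : Real.exp (2 * L * |r|) = Real.exp (L * |r|) ^ 2 := by
    rw [← Real.exp_nat_mul]; push_cast; ring_nf
  have hB : Real.sqrt ((1 + E₀) * Real.exp (C / L) * Real.exp (2 * L * |r|)) =
      Real.sqrt ((1 + E₀) * Real.exp (C / L)) * Real.exp (L * |r|) := by
    rw [hexp, Real.sqrt_mul' _ (sq_nonneg _), Real.sqrt_sq (Real.exp_pos _).le]
  have hLL : 0 ≤ L ^ 2 * ∑ i, a i r p * a i r p := mul_nonneg (sq_nonneg _) n3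
  constructor
  · have m1 : (L * |a i r p|) ^ 2 ≤ (1 + E₀) * Real.exp (C / L) * Real.exp (2 * L * |r|) := by
      rw [mul_pow, sq_abs]
      have := mul_le_mul_of_nonneg_left n1 (sq_nonneg L)
      have e : L ^ 2 * a i r p ^ 2 = L ^ 2 * (a i r p * a i r p) := by ring
      linarith
    have m2 := Real.le_sqrt_of_sq_le m1
    rw [hB] at m2
    rw [mul_assoc, inv_mul_eq_div, le_div_iff₀ hL, mul_comm]
    exact m2
  · have m1 : |b i r p| ^ 2 ≤ (1 + E₀) * Real.exp (C / L) * Real.exp (2 * L * |r|) := by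
      rw [sq_abs, sq]
      linarith
    have m2 := Real.le_sqrt_of_sq_le m1
    rwa [hB] at m2

end Vale.Agent.P207.Q.Growth
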