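import Vale.Agent.P207.Q.H413.Cal
import Vale.Agent.P207.Q.H129.Growth
import Mathlib.Topology.ContinuousMap.Compact

/-!
# P207, block JG (second half): derivatives of `f ∘ φ_r` along the backward orbit, over `Cal`
-/

open scoped Topology Matrix
open Set Filter MeasureTheory

noncomputable section

namespace Vale.Agent.P207.Q.Trans

open Vale.Agent.P207.Q.H413

/-- the derivative along the diagonal -/
theorem hasDerivAt_diag {g a : ℝ → ℝ → ℝ} {b r₀ : ℝ}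
    (ha : ∀ r s, HasDerivAt (fun r => g r s) (a r s) r)
    (hac : ContinuousAt (fun z : ℝ × ℝ => a z.1 z.2) (r₀, r₀))
    (hb : HasDerivAt (fun s => g r₀ s) b r₀) : HasDerivAt (fun r => g r r) (a r₀ r₀ + b) r₀ := by
  have h1 : HasDerivAt (fun r => g r r - g r₀ r) (a r₀ r₀) r₀ := by
    rw [hasDerivAt_iff_isLittleO]
    refine Asymptotics.isLittleO_iff.2 fun ε hε => ?_
    obtain ⟨δ, hδ, hclose⟩ := Metric.continuousAt_iff.1 hac ε hε
    filter_upwards [Metric.ball_mem_nhds r₀ hδ] with r hr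
    have hball : ∀ u ∈ Set.uIcc r₀ r, ‖a u r - a r₀ r₀‖ ≤ ε := by
      intro u hu
      have h3 : dist u r₀ ≤ dist r r₀ := by
        rw [Real.dist_eq, Real.dist_eq]
        have := Set.abs_sub_left_of_mem_uIcc hu
        exact this
      have h2 : dist ((u, r) : ℝ × ℝ) (r₀, r₀) < δ := by
        rw [Prod.dist_eq, max_lt_iff]
        exact ⟨lt_of_le_of_lt h3 hr, hr⟩
      have := hclose h2
      exact (dist_eq_norm (a u r) (a r₀ r₀) ▸ this).le
    have hd : ∀ u ∈ Set.uIcc r₀ r, HasDerivWithinAt (fun u => g u r - a r₀ r₀ * u)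
        (a u r - a r₀ r₀) (Set.uIcc r₀ r) u := by
      intro u _
      have h4 := (ha u r).fun_sub ((hasDerivAt_id' u).const_mul (a r₀ r₀))
      rw [mul_one] at h4
      exact h4.hasDerivWithinAt
    have key := Convex.norm_image_sub_le_of_norm_hasDerivWithin_le hd hball
      (convex_uIcc r₀ r) left_mem_uIcc right_mem_uIcc
    rw [sub_self, sub_zero, smul_eq_mul]
    calc ‖g r r - g r₀ r - (r - r₀) * a r₀ r₀‖
        = ‖g r r - a r₀ r₀ * r - (g r₀ r - a r₀ r₀ * r₀)‖ := by congr 1; ring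
      _ ≤ ε * ‖r - r₀‖ := key
  have h2 := h1.fun_add hb
  refine h2.congr_of_eventuallyEq (Eventually.of_forall fun r => ?_)
  simp

variable {P : Type} [TopologicalSpace P] [CompactSpace P] {I : C(P, ℝ) →L[ℝ] ℝ}

/-- the flows of the fields, and the operation `f ↦ f ∘ φ_r`, `φ` the flow of `X` -/
structure TF (c : Cal I) (ψ : Idx → ℝ → P → P) where
  zero : ∀ k p, ψ k 0 p = p
  add : ∀ s t p, ψ .X (s + t) p = ψ .X s (ψ .X t p)
  cont : ∀ k, Continuous fun z : ℝ × P => ψ k z.1 z.2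
  deriv : ∀ k (f : c.S) p t, HasDerivAt (fun s => (f : C(P, ℝ)) (ψ k s p))
    ((c.Y k f : C(P, ℝ)) (ψ k t p)) t
  cmp : ℝ → c.S → c.S
  cmp_apply : ∀ r f p, (cmp r f : C(P, ℝ)) p = (f : C(P, ℝ)) (ψ .X r p)
  jcont : ∀ k f, Continuous fun z : ℝ × P => (c.Y k (cmp z.1 f) : C(P, ℝ)) z.2

namespace TF

variable {c : Cal I} {ψ : Idx → ℝ → P → P} (T : TF c ψ)

theorem cmp_zero (f : c.S) : T.cmp 0 f = f := by
  apply Subtype.ext
  ext p
  rw [T.cmp_apply, T.zero]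

/-- `X` commutes with the composition with the flow -/
theorem X_cmp (r : ℝ) (f : c.S) : c.Y .X (T.cmp r f) = T.cmp r (c.Y .X f) := by
  apply Subtype.ext
  ext p
  have h1 := T.deriv .X (T.cmp r f) p 0
  have h2 : HasDerivAt (fun s => (T.cmp r f : C(P, ℝ)) (ψ .X s p))
      ((c.Y .X f : C(P, ℝ)) (ψ .X r p)) 0 := by
    have h3 := T.deriv .X f p (r + 0)
    have h4 := h3.comp_const_add r 0
    rw [add_zero] at h4
    refine h4.congr_of_eventuallyEq (Eventually.of_forall fun s => ?_)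
    simp only
    rw [T.cmp_apply, T.add]
  rw [T.cmp_apply, h2.unique h1, T.zero]

/-- the derivative in `r` of `Y_k (f ∘ φ_r)` -/
theorem deriv_cmp (k : Idx) (f : c.S) (p : P) (r : ℝ) :
    HasDerivAt (fun r => (c.Y k (T.cmp r f) : C(P, ℝ)) p)
      ((c.Y k (T.cmp r (c.Y .X f)) : C(P, ℝ)) p) r := by
  have hjc := T.jcont k (c.Y .X f)
  have hψc := T.cont k
  -- the fundamental theorem of calculus, in the direction `r`
  have hFc : Continuous fun z : ℝ × P => (T.cmp z.1 (c.Y .X f) : C(P, ℝ)) z.2 := by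
    have e : (fun z : ℝ × P => (T.cmp z.1 (c.Y .X f) : C(P, ℝ)) z.2) =
        fun z : ℝ × P => ((c.Y .X f : c.S) : C(P, ℝ)) (ψ .X z.1 z.2) := by
      funext z; rw [T.cmp_apply]
    rw [e]
    exact (ContinuousMap.continuous _).comp (T.cont .X)
  have h1 : ∀ (q : P) (s : ℝ), (T.cmp s f : C(P, ℝ)) q - (T.cmp r f : C(P, ℝ)) q =
      ∫ u in r..s, (T.cmp u (c.Y .X f) : C(P, ℝ)) q := by
    intro q s
    rw [intervalIntegral.integral_eq_sub_of_hasDerivAt (f := fun u => (T.cmp u f : C(P, ℝ)) q)]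
    · intro u _
      have h2 := T.deriv .X f q u
      rw [T.cmp_apply]
      exact h2.congr_of_eventuallyEq (Eventually.of_forall fun v => T.cmp_apply v f q)
    · exact (hFc.comp (continuous_id.prodMk continuous_const)).intervalIntegrable _ _
  -- differentiate in the direction of `Y_k`
  have h2 : ∀ s : ℝ, (c.Y k (T.cmp s f) : C(P, ℝ)) p - (c.Y k (T.cmp r f) : C(P, ℝ)) p =
      ∫ u in r..s, (c.Y k (T.cmp u (c.Y .X f)) : C(P, ℝ)) p := by
    intro s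
    have hd1 : HasDerivAt (fun t => (T.cmp s f : C(P, ℝ)) (ψ k t p) -
        (T.cmp r f : C(P, ℝ)) (ψ k t p))
        ((c.Y k (T.cmp s f) : C(P, ℝ)) p - (c.Y k (T.cmp r f) : C(P, ℝ)) p) 0 := by
      have a1 := T.deriv k (T.cmp s f) p 0
      have a2 := T.deriv k (T.cmp r f) p 0
      rw [T.zero] at a1 a2
      exact a1.fun_sub a2
    obtain ⟨B, hB⟩ : ∃ B, ∀ u ∈ Set.uIcc r s, ∀ q : P,
        ‖(c.Y k (T.cmp u (c.Y .X f)) : C(P, ℝ)) q‖ ≤ B := by
      have hK : IsCompact ((Set.uIcc r s) ×ˢ (univ : Set P)) := isCompact_uIcc.prod isCompact_univ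
      obtain ⟨B, hB⟩ := hK.exists_bound_of_continuousOn hjc.continuousOn
      exact ⟨B, fun u hu q => hB (u, q) ⟨hu, mem_univ _⟩⟩
    have hd2 := (intervalIntegral.hasDerivAt_integral_of_dominated_loc_of_deriv_le
      (μ := volume) (a := r) (b := s) (x₀ := (0:ℝ)) (s := univ) (bound := fun _ => B)
      (F := fun t u => (T.cmp u (c.Y .X f) : C(P, ℝ)) (ψ k t p))
      (F' := fun t u => (c.Y k (T.cmp u (c.Y .X f)) : C(P, ℝ)) (ψ k t p))
      univ_mem
      (Eventually.of_forall fun t => (hFc.comp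
        (continuous_id.prodMk continuous_const)).aestronglyMeasurable)
      ((hFc.comp (continuous_id.prodMk continuous_const)).intervalIntegrable _ _)
      ((hjc.comp (continuous_id.prodMk continuous_const)).aestronglyMeasurable)
      (Eventually.of_forall fun u hu t _ => hB u (uIoc_subset_uIcc hu) _)
      intervalIntegrable_const
      (Eventually.of_forall fun u _ t _ => T.deriv k (T.cmp u (c.Y .X f)) p t)).2
    have hd3 : HasDerivAt (fun t => (T.cmp s f : C(P, ℝ)) (ψ k t p) -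
        (T.cmp r f : C(P, ℝ)) (ψ k t p))
        (∫ u in r..s, (c.Y k (T.cmp u (c.Y .X f)) : C(P, ℝ)) (ψ k 0 p)) 0 :=
      hd2.congr_of_eventuallyEq (Eventually.of_forall fun t => h1 (ψ k t p) s)
    rw [hd1.unique hd3, T.zero]
  have hc : Continuous fun u => (c.Y k (T.cmp u (c.Y .X f)) : C(P, ℝ)) p :=
    hjc.comp (continuous_id.prodMk continuous_const)
  have h3 : HasDerivAt (fun s => ∫ u in r..s, (c.Y k (T.cmp u (c.Y .X f)) : C(P, ℝ)) p)
      ((c.Y k (T.cmp r (c.Y .X f)) : C(P, ℝ)) p) r :=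
    intervalIntegral.integral_hasDerivAt_right (hc.intervalIntegrable _ _)
      (hc.stronglyMeasurableAtFilter _ _) hc.continuousAt
  have h4 := h3.const_add ((c.Y k (T.cmp r f) : C(P, ℝ)) p)
  refine h4.congr_of_eventuallyEq (Eventually.of_forall fun s => ?_)
  simp only
  rw [← h2 s]
  ring

/-- **the derivative of `Y_k (f ∘ φ_r)` along the backward orbit is `[Y_k, X] (f ∘ φ_r)`** -/
theorem deriv_back (k : Idx) (f : c.S) (q : P) (r : ℝ) :
    HasDerivAt (fun s => (c.Y k (T.cmp s f) : C(P, ℝ)) (ψ .X (-s) q))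
      ((c.Y k (c.Y .X (T.cmp r f)) : C(P, ℝ)) (ψ .X (-r) q) -
        (c.Y .X (c.Y k (T.cmp r f)) : C(P, ℝ)) (ψ .X (-r) q)) r := by
  have h1 := hasDerivAt_diag (g := fun r s => (c.Y k (T.cmp r f) : C(P, ℝ)) (ψ .X (-s) q))
    (a := fun r s => (c.Y k (T.cmp r (c.Y .X f)) : C(P, ℝ)) (ψ .X (-s) q))
    (b := - (c.Y .X (c.Y k (T.cmp r f)) : C(P, ℝ)) (ψ .X (-r) q)) (r₀ := r)
    (fun r s => T.deriv_cmp k f _ r) ?_ ?_
  · simp only [T.X_cmp]
    rw [sub_eq_add_neg]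
    exact h1
  · have hc : Continuous fun z : ℝ × ℝ =>
        (c.Y k (T.cmp z.1 (c.Y .X f)) : C(P, ℝ)) (ψ .X (-z.2) q) :=
      (T.jcont k (c.Y .X f)).comp (continuous_fst.prodMk
        ((T.cont .X).comp ((continuous_neg.comp continuous_snd).prodMk continuous_const)))
    exact hc.continuousAt
  · have h2 := (T.deriv .X (c.Y k (T.cmp r f)) q (-r)).comp r (hasDerivAt_neg' r)
    rw [mul_neg_one] at h2
    exact h2

theorem deriv_back_V (i : Fin 2) (f : c.S) (q : P) (r : ℝ) :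
    HasDerivAt (fun s => (c.Y (.V i) (T.cmp s f) : C(P, ℝ)) (ψ .X (-s) q))
      ((c.Y (.H i) (T.cmp r f) : C(P, ℝ)) (ψ .X (-r) q)) r := by
  refine (T.deriv_back (.V i) f q r).congr_deriv ?_
  rw [← c.VX i (T.cmp r f)]
  simp

/-- `R` commutes with the composition with the flow -/
theorem R_cmp (hRX : ∀ f : c.S, c.Y .R (c.Y .X f) = c.Y .X (c.Y .R f)) (r : ℝ) (f : c.S) (p : P) :
    (c.Y .R (T.cmp r f) : C(P, ℝ)) p = (c.Y .R f : C(P, ℝ)) (ψ .X r p) := by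
  set q := ψ .X r p with hq
  have h1 : ∀ s, HasDerivAt (fun s => (c.Y .R (T.cmp s f) : C(P, ℝ)) (ψ .X (-s) q)) 0 s := by
    intro s
    refine (T.deriv_back .R f q s).congr_deriv ?_
    rw [hRX, sub_self]
  have h2 := is_const_of_deriv_eq_zero (fun s => (h1 s).differentiableAt)
    (fun s => (h1 s).deriv) r 0
  simp only [neg_zero, T.zero, T.cmp_zero] at h2
  rw [← h2, hq, ← T.add, neg_add_cancel, T.zero]

variable {K : Fin 2 → Fin 2 → C(P, ℝ)} {ρ : Fin 2 → C(P, ℝ)}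

theorem deriv_back_H (hRX : ∀ f : c.S, c.Y .R (c.Y .X f) = c.Y .X (c.Y .R f))
    (hHX : ∀ i (f : c.S), ((c.Y (.H i) (c.Y .X f) : c.S) : C(P, ℝ)) -
      ((c.Y .X (c.Y (.H i) f) : c.S) : C(P, ℝ)) =
      ∑ j, K i j * ((c.Y (.V j) f : c.S) : C(P, ℝ)) + ρ i * ((c.Y .R f : c.S) : C(P, ℝ)))
    (i : Fin 2) (f : c.S) (q : P) (r : ℝ) :
    HasDerivAt (fun s => (c.Y (.H i) (T.cmp s f) : C(P, ℝ)) (ψ .X (-s) q))
      (∑ j, K i j (ψ .X (-r) q) * (c.Y (.V j) (T.cmp r f) : C(P, ℝ)) (ψ .X (-r) q) +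
        ρ i (ψ .X (-r) q) * (c.Y .R f : C(P, ℝ)) q) r := by
  refine (T.deriv_back (.H i) f q r).congr_deriv ?_
  have h1 := congrArg (fun g : C(P, ℝ) => g (ψ .X (-r) q)) (hHX i (T.cmp r f))
  simp only [ContinuousMap.sub_apply, ContinuousMap.add_apply, ContinuousMap.mul_apply,
    ContinuousMap.coe_sum, Finset.sum_apply, T.R_cmp hRX] at h1
  rw [h1]
  congr 2
  rw [← T.add, add_neg_cancel, T.zero]

/-- **block JG over `Cal`**: Jacobi growth -/
theorem exists_growth (hRX : ∀ f : c.S, c.Y .R (c.Y .X f) = c.Y .X (c.Y .R f))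
    (hHX : ∀ i (f : c.S), ((c.Y (.H i) (c.Y .X f) : c.S) : C(P, ℝ)) -
      ((c.Y .X (c.Y (.H i) f) : c.S) : C(P, ℝ)) =
      ∑ j, K i j * ((c.Y (.V j) f : c.S) : C(P, ℝ)) + ρ i * ((c.Y .R f : c.S) : C(P, ℝ)))
    {L : ℝ} (hL : 0 < L) (hs : ∀ i j, K i j = K j i)
    (h0 : ∀ p (x : Fin 2 → ℝ), 0 ≤ ∑ i, ∑ j, x i * K i j p * x j)
    (h1 : ∀ p (x : Fin 2 → ℝ), ∑ i, ∑ j, x i * K i j p * x j ≤ L ^ 2 * ∑ i, x i ^ 2)
    (f : c.S) : ∃ C, 0 ≤ C ∧ ∀ k r p,
      |(c.Y k (T.cmp r f) : C(P, ℝ)) p| ≤ C * Real.exp (L * |r|) := by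
  classical
  -- bounds
  have bdd : ∀ u : C(P, ℝ), ∀ p, |u p| ≤ ‖u‖ := fun u p => u.norm_coe_le_norm p
  set E₀ : ℝ := L ^ 2 * ∑ i, ‖(c.Y (.V i) f : C(P, ℝ))‖ ^ 2 + ∑ i, ‖(c.Y (.H i) f : C(P, ℝ))‖ ^ 2
    with hE₀
  set C₁ : ℝ := Real.sqrt (∑ i, (‖ρ i‖ * ‖(c.Y .R f : C(P, ℝ))‖) ^ 2) with hC₁
  have hsum0 : 0 ≤ ∑ i, (‖ρ i‖ * ‖(c.Y .R f : C(P, ℝ))‖) ^ 2 :=
    Finset.sum_nonneg fun i _ => sq_nonneg _
  have e1 : ∀ p (x : Fin 2 → ℝ), x ⬝ᵥ ((Matrix.of fun i j => K i j p) *ᵥ x) =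
      ∑ i, ∑ j, x i * K i j p * x j := by
    intro p x
    simp only [dotProduct, Matrix.mulVec, Matrix.of_apply, Finset.mul_sum, mul_assoc]
  have key := fun i r p => Growth.abs_deriv_le (κ := Fin 2) (P := P) (φ := ψ .X)
    (T.zero .X) T.add (K := fun p => Matrix.of fun i j => K i j p) (ρ := fun i p => ρ i p)
    (a := fun i r p => (c.Y (.V i) (T.cmp r f) : C(P, ℝ)) p)
    (b := fun i r p => (c.Y (.H i) (T.cmp r f) : C(P, ℝ)) p)
    (Rf := fun q => (c.Y .R f : C(P, ℝ)) q) (L := L) (C := C₁) (E₀ := E₀) hL (Real.sqrt_nonneg _)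
    (fun i q r => T.deriv_back_V i f q r)
    (fun i q r => T.deriv_back_H hRX hHX i f q r)
    (fun p => by ext i j; exact congrArg (fun g : C(P, ℝ) => g p) (hs j i))
    (fun p x => by rw [e1]; exact h0 p x)
    (fun p x => by
      rw [e1]
      refine (h1 p x).trans_eq ?_
      simp only [dotProduct, sq])
    (fun p q => by
      rw [hC₁, Real.sq_sqrt hsum0]
      refine Finset.sum_le_sum fun i _ => ?_
      rw [← sq, ← sq_abs]
      refine pow_le_pow_left₀ (abs_nonneg _) ?_ 2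
      rw [abs_mul]
      exact mul_le_mul (bdd _ _) (bdd _ _) (abs_nonneg _) (norm_nonneg _))
    (fun q => by
      rw [T.cmp_zero, hE₀]
      refine add_le_add (mul_le_mul_of_nonneg_left (Finset.sum_le_sum fun i _ => ?_)
        (sq_nonneg L)) (Finset.sum_le_sum fun i _ => ?_)
      · rw [← sq, ← sq_abs]
        exact pow_le_pow_left₀ (abs_nonneg _) (bdd _ _) 2
      · rw [← sq, ← sq_abs]
        exact pow_le_pow_left₀ (abs_nonneg _) (bdd _ _) 2) i r p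
  set B := Real.sqrt ((1 + E₀) * Real.exp (C₁ / L)) with hB
  have hB0 : 0 ≤ B := Real.sqrt_nonneg _
  have hLi : 0 ≤ L⁻¹ * B := mul_nonneg (inv_pos.2 hL).le hB0
  refine ⟨L⁻¹ * B + B + ‖(c.Y .X f : C(P, ℝ))‖ + ‖(c.Y .R f : C(P, ℝ))‖, by positivity, ?_⟩
  have hexp : ∀ r : ℝ, 1 ≤ Real.exp (L * |r|) := fun r =>
    Real.one_le_exp (mul_nonneg hL.le (abs_nonneg r))
  intro k r p
  have n1 := norm_nonneg (c.Y .X f : C(P, ℝ))
  have n2 := norm_nonneg (c.Y .R f : C(P, ℝ))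
  have hE := Real.exp_pos (L * |r|)
  match k with
  | .X =>
    rw [T.X_cmp, T.cmp_apply]
    have h2 := bdd (c.Y .X f : C(P, ℝ)) (ψ .X r p)
    have h3 : ‖(c.Y .X f : C(P, ℝ))‖ ≤ ‖(c.Y .X f : C(P, ℝ))‖ * Real.exp (L * |r|) :=
      le_mul_of_one_le_right n1 (hexp r)
    nlinarith [mul_nonneg hLi hE.le, mul_nonneg hB0 hE.le, mul_nonneg n2 hE.le]
  | .R =>
    rw [T.R_cmp hRX]
    have h2 := bdd (c.Y .R f : C(P, ℝ)) (ψ .X r p)
    have h3 : ‖(c.Y .R f : C(P, ℝ))‖ ≤ ‖(c.Y .R f : C(P, ℝ))‖ * Real.exp (L * |r|) :=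
      le_mul_of_one_le_right n2 (hexp r)
    nlinarith [mul_nonneg hLi hE.le, mul_nonneg hB0 hE.le, mul_nonneg n1 hE.le]
  | .V i =>
    have h2 := (key i r p).1
    nlinarith [mul_nonneg hLi hE.le, mul_nonneg hB0 hE.le, mul_nonneg n1 hE.le,
      mul_nonneg n2 hE.le]
  | .H i =>
    have h2 := (key i r p).2
    nlinarith [mul_nonneg hLi hE.le, mul_nonneg hB0 hE.le, mul_nonneg n1 hE.le,
      mul_nonneg n2 hE.le]

/-- the unstable derivative `D_k = H_k + U_kj V_j` -/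
def Du (c : Cal I) (U : Fin 2 → Fin 2 → C(P, ℝ)) (k : Fin 2) (f : c.S) (p : P) : ℝ :=
  (c.Y (.H k) f : C(P, ℝ)) p + ∑ j, U k j p * (c.Y (.V j) f : C(P, ℝ)) p

/-- **contraction** of the unstable derivatives of `f ∘ φ_{-r}`, for `R f = 0` -/
theorem contr (hRX : ∀ f : c.S, c.Y .R (c.Y .X f) = c.Y .X (c.Y .R f))
    (hHX : ∀ i (f : c.S), ((c.Y (.H i) (c.Y .X f) : c.S) : C(P, ℝ)) -
      ((c.Y .X (c.Y (.H i) f) : c.S) : C(P, ℝ)) =
      ∑ j, K i j * ((c.Y (.V j) f : c.S) : C(P, ℝ)) + ρ i * ((c.Y .R f : c.S) : C(P, ℝ)))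
    {U : Fin 2 → Fin 2 → C(P, ℝ)} {lam : ℝ}
    (hU : ∀ i j p r, HasDerivAt (fun s => U i j (ψ .X s p))
      (K i j (ψ .X r p) - ∑ k, U i k (ψ .X r p) * U k j (ψ .X r p)) r)
    (hlo : ∀ p (x : Fin 2 → ℝ), lam * ∑ i, x i ^ 2 ≤ ∑ i, ∑ j, x i * U i j p * x j)
    (f : c.S) (hf : c.Y .R f = 0) {r : ℝ} (hr : 0 ≤ r) (p : P) :
    ∑ k, Du c U k (T.cmp (-r) f) p ^ 2 ≤
      Real.exp (-(2 * lam) * r) * ∑ k, Du c U k f (ψ .X (-r) p) ^ 2 := by
  set q := ψ .X (-r) p with hq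
  -- `d k s = D_k (f ∘ φ_s) (φ_{-s} q)`
  set d : Fin 2 → ℝ → ℝ := fun k s => Du c U k (T.cmp s f) (ψ .X (-s) q) with hd
  have hdd : ∀ k s, HasDerivAt (d k) (∑ j, U k j (ψ .X (-s) q) * d j s) s := by
    intro k s
    have a1 := T.deriv_back_H hRX hHX k f q s
    rw [hf] at a1
    have a2 : ∀ j, HasDerivAt (fun s => U k j (ψ .X (-s) q))
        (-(K k j (ψ .X (-s) q) - ∑ l, U k l (ψ .X (-s) q) * U l j (ψ .X (-s) q))) s := by
      intro j
      have := (hU k j q (-s)).comp s (hasDerivAt_neg' s)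
      rw [mul_neg_one] at this
      exact this
    have a3 := HasDerivAt.fun_sum (u := Finset.univ)
      (A := fun j s => U k j (ψ .X (-s) q) * (c.Y (.V j) (T.cmp s f) : C(P, ℝ)) (ψ .X (-s) q))
      (x := s) (fun j _ => (a2 j).fun_mul (T.deriv_back_V j f q s))
    have a4 := a1.fun_add a3
    refine a4.congr_deriv ?_
    simp only [hd, Du, Fin.sum_univ_two, ZeroMemClass.coe_zero, ContinuousMap.zero_apply]
    ring
  -- `e(s) = |d|²` grows
  have he : ∀ s, HasDerivAt (fun s => ∑ k, d k s ^ 2)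
      (2 * ∑ k, ∑ j, d k s * U k j (ψ .X (-s) q) * d j s) s := by
    intro s
    have a3 := HasDerivAt.fun_sum (u := Finset.univ) (A := fun k s => d k s ^ 2)
      (x := s) (fun k _ => (hdd k s).fun_pow 2)
    refine a3.congr_deriv ?_
    simp only [Fin.sum_univ_two]
    push_cast
    ring
  have hmono : Monotone (fun s => (∑ k, d k s ^ 2) * Real.exp (-(2 * lam) * s)) := by
    have hder : ∀ s, HasDerivAt (fun s => (∑ k, d k s ^ 2) * Real.exp (-(2 * lam) * s))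
        ((2 * ∑ k, ∑ j, d k s * U k j (ψ .X (-s) q) * d j s - 2 * lam * ∑ k, d k s ^ 2) *
          Real.exp (-(2 * lam) * s)) s := by
      intro s
      have e1 : HasDerivAt (fun s => -(2 * lam) * s) (-(2 * lam)) s := by
        simpa using (hasDerivAt_id s).const_mul (-(2 * lam))
      refine ((he s).fun_mul e1.exp).congr_deriv ?_
      ring
    refine monotone_of_deriv_nonneg (fun s => (hder s).differentiableAt) fun s => ?_
    rw [(hder s).deriv]
    refine mul_nonneg ?_ (Real.exp_pos _).le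
    have := hlo (ψ .X (-s) q) (fun k => d k s)
    linarith
  have key := hmono (show -r ≤ 0 by linarith)
  simp only [hd, neg_neg, neg_zero, mul_zero, Real.exp_zero, mul_one, T.zero, T.cmp_zero] at key
  have hpq : ψ .X r q = p := by rw [hq, ← T.add, add_neg_cancel, T.zero]
  rw [hpq] at key
  have e2 : Real.exp (-(2 * lam) * r) * Real.exp (-(2 * lam) * -r) = 1 := by
    rw [← Real.exp_add]; simp
  calc ∑ k, Du c U k (T.cmp (-r) f) p ^ 2 = Real.exp (-(2 * lam) * r) *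
        ((∑ k, Du c U k (T.cmp (-r) f) p ^ 2) * Real.exp (-(2 * lam) * -r)) := by
        rw [mul_comm (∑ k, _), ← mul_assoc, e2, one_mul]
    _ ≤ _ := mul_le_mul_of_nonneg_left key (Real.exp_pos _).le

end TF

end Vale.Agent.P207.Q.Trans
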